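import Mathlib
import Vale.Agent.P069.Defs
import Vale.Agent.P069.Final

namespace Vale.Agent.Results.P069.Main

open Vale.Agent.P069

theorem result :
    ∃ (X : Type) (_ : NormedAddCommGroup X) (_ : NormedSpace ℝ X),
      CompleteSpace X ∧ TopologicalSpace.SeparableSpace X ∧ ¬ FiniteDimensional ℝ X ∧
      IsReflexive X ∧
      (∀ t : ℝ, 0 < t →
        ((√(1 + t ^ 2 / 12) - 1 : ℝ) : EReal) ≤ amucModulus (normSeminorm ℝ X) t) ∧
      IsAMUC (normSeminorm ℝ X) ∧ AMUCRenormable X ∧ ¬ AUCRenormable X := by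
  have h : IsAMUC (normSeminorm ℝ (XT Tr)) := by
    intro t ht
    refine lt_of_lt_of_le ?_ (amuc_bound ht)
    have : 1 < √(1 + t ^ 2 / 12) := Real.lt_sqrt_of_sq_lt (by nlinarith)
    exact_mod_cast sub_pos.2 this
  refine ⟨XT Tr, inferInstance, inferInstance, inferInstance, separable_XT,
    not_finiteDimensional, reflexive_XT, fun t ht => amuc_bound ht, h,
    ⟨normSeminorm ℝ (XT Tr), ⟨1, 1, one_pos, fun x => by simp⟩, h⟩, not_auc⟩

end Vale.Agent.Results.P069.Main
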